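import Mathlib

/-!
# Sobolev inequality for a system of flows

`Φ a` are flows on `N`, `X a` the derivation along `Φ a`; `avg r l F p` is the iterated integral of
`F` over the flows of the list `l`, started at `p`. If the iterated integrals are bounded by the
integral with respect to `μ`, the supremum of a function is bounded by the `L¹` norms of its
iterated derivatives.
-/

open MeasureTheory intervalIntegral Set Filter Topology

noncomputable section

namespace Vale.Agent.P207.H955

variable {N κ : Type*} [TopologicalSpace N]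

/-- the iterated integral along the flows of a list. -/
def avg (Φ : κ → ℝ → N → N) (r : ℝ) : List κ → (N → ℝ) → N → ℝ
  | [], F, p => F p
  | a :: l, F, p => ∫ t in (0 : ℝ)..r, avg Φ r l F (Φ a t p)

variable {Φ : κ → ℝ → N → N} (hΦ : ∀ a, Continuous fun x : ℝ × N => Φ a x.1 x.2)

include hΦ in
theorem avg_continuous (r : ℝ) (l : List κ) {F : N → ℝ} (hF : Continuous F) :
    Continuous (avg Φ r l F) := by
  induction l with
  | nil => exact hF
  | cons a l ih =>
    refine intervalIntegral.continuous_parametric_intervalIntegral_of_continuous' ?_ 0 r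
    exact ih.comp ((hΦ a).comp (continuous_snd.prodMk continuous_fst))

include hΦ in
theorem avg_flow_continuous (r : ℝ) (l : List κ) {F : N → ℝ} (hF : Continuous F) (a : κ) (p : N) :
    Continuous fun t : ℝ => avg Φ r l F (Φ a t p) :=
  (avg_continuous hΦ r l hF).comp ((hΦ a).comp (continuous_id.prodMk continuous_const))

include hΦ in
theorem avg_mono {r : ℝ} (hr : 0 ≤ r) (l : List κ) {F G : N → ℝ} (hF : Continuous F)
    (hG : Continuous G) (h : ∀ p, F p ≤ G p) (p : N) : avg Φ r l F p ≤ avg Φ r l G p := by
  induction l generalizing p with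
  | nil => exact h p
  | cons a l ih =>
    exact intervalIntegral.integral_mono_on hr
      ((avg_flow_continuous hΦ r l hF a p).intervalIntegrable _ _)
      ((avg_flow_continuous hΦ r l hG a p).intervalIntegrable _ _) fun t _ => ih _

omit [TopologicalSpace N] in
theorem avg_nonneg {r : ℝ} (hr : 0 ≤ r) (l : List κ) {F : N → ℝ} (h : ∀ p, 0 ≤ F p) (p : N) :
    0 ≤ avg Φ r l F p := by
  induction l generalizing p with
  | nil => exact h p
  | cons a l ih => exact intervalIntegral.integral_nonneg hr fun t _ => ih _

/-- the one-dimensional inequality. -/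
theorem one_dim {f f' : ℝ → ℝ} {r : ℝ} (hr : 0 < r) (hf : ∀ t, HasDerivAt f (f' t) t)
    (hf' : Continuous f') :
    |f 0| ≤ (1 / r) * (∫ t in (0 : ℝ)..r, |f t|) + ∫ t in (0 : ℝ)..r, |f' t| := by
  have hfc : Continuous f := continuous_iff_continuousAt.2 fun t => (hf t).continuousAt
  have h1 : ∀ t ∈ Icc (0 : ℝ) r, |f 0| ≤ |f t| + ∫ s in (0 : ℝ)..r, |f' s| := by
    intro t ht
    have h2 : ∫ s in (0 : ℝ)..t, f' s = f t - f 0 :=
      intervalIntegral.integral_eq_sub_of_hasDerivAt (fun s _ => hf s)
        (hf'.intervalIntegrable _ _)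
    have h3 : |∫ s in (0 : ℝ)..t, f' s| ≤ ∫ s in (0 : ℝ)..t, |f' s| :=
      intervalIntegral.abs_integral_le_integral_abs ht.1
    have h4 : ∫ s in (0 : ℝ)..t, |f' s| ≤ ∫ s in (0 : ℝ)..r, |f' s| := by
      rw [← intervalIntegral.integral_add_adjacent_intervals
        (hf'.abs.intervalIntegrable 0 t) (hf'.abs.intervalIntegrable t r)]
      have := intervalIntegral.integral_nonneg (f := fun s => |f' s|) (μ := volume) ht.2
        fun s _ => abs_nonneg _
      linarith
    rw [h2] at h3
    have h5 : |f 0| ≤ |f t| + |f t - f 0| := by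
      have := abs_sub_abs_le_abs_sub (f 0) (f t)
      rw [abs_sub_comm] at this
      linarith
    linarith
  have h2 : ∫ _ in (0 : ℝ)..r, |f 0| ≤
      ∫ t in (0 : ℝ)..r, (|f t| + ∫ s in (0 : ℝ)..r, |f' s|) :=
    intervalIntegral.integral_mono_on hr.le (by simp)
      ((hfc.abs.add continuous_const).intervalIntegrable _ _) h1
  rw [intervalIntegral.integral_add (hfc.abs.intervalIntegrable _ _) (by simp),
    intervalIntegral.integral_const, intervalIntegral.integral_const, sub_zero, smul_eq_mul,
    smul_eq_mul] at h2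
  have h3 : r * |f 0| ≤ r * ((1 / r) * (∫ t in (0 : ℝ)..r, |f t|) +
      ∫ t in (0 : ℝ)..r, |f' t|) := by
    rw [mul_add, ← mul_assoc, mul_one_div_cancel hr.ne', one_mul]
    exact h2
  exact le_of_mul_le_mul_left h3 hr

/-- smooth functions with their derivations along the flows. -/
structure FlowDer (Φ : κ → ℝ → N → N) (A : Type*) where
  /-- the function. -/
  ev : A → N → ℝ
  /-- the derivations. -/
  X : κ → A → A
  cont : ∀ u, Continuous (ev u)
  der : ∀ a u p t, HasDerivAt (fun s => ev u (Φ a s p)) (ev (X a u) (Φ a t p)) t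

namespace FlowDer

variable {A : Type*} (S : FlowDer Φ A)

/-- iterated derivatives, the head of the list first. -/
def it : List κ → A → A
  | [], u => u
  | a :: l, u => it l (S.X a u)

include hΦ in
/-- **the pointwise Sobolev inequality.** -/
theorem abs_le_avg (h0 : ∀ a p, Φ a 0 p = p) {r : ℝ} (hr : 0 < r) (l : List κ) (u : A) (p : N) :
    |S.ev u p| ≤ (max (1 / r) 1) ^ l.length *
      (l.sublists'.map fun l' => avg Φ r l (fun q => |S.ev (S.it l' u) q|) p).sum := by
  induction l generalizing u p with
  | nil => simp [avg, it]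
  | cons a l ih =>
    set c := max (1 / r) 1 with hc
    have hc1 : 1 / r ≤ c := le_max_left _ _
    have hc2 : (1 : ℝ) ≤ c := le_max_right _ _
    have hc0 : 0 ≤ c := zero_le_one.trans hc2
    have hd := one_dim hr (f := fun t => S.ev u (Φ a t p))
      (f' := fun t => S.ev (S.X a u) (Φ a t p)) (fun t => S.der a u p t)
      ((S.cont _).comp ((hΦ a).comp (continuous_id.prodMk continuous_const)))
    simp only [h0] at hd
    have key : ∀ w : A, ∫ t in (0 : ℝ)..r, |S.ev w (Φ a t p)| ≤ c ^ l.length *
        (l.sublists'.map fun l' => avg Φ r (a :: l) (fun q => |S.ev (S.it l' w) q|) p).sum := by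
      intro w
      have h1 : ∫ t in (0 : ℝ)..r, |S.ev w (Φ a t p)| ≤ ∫ t in (0 : ℝ)..r, c ^ l.length *
          (l.sublists'.map fun l' => avg Φ r l (fun q => |S.ev (S.it l' w) q|) (Φ a t p)).sum := by
        refine intervalIntegral.integral_mono_on hr.le ?_ ?_ fun t _ => ih w _
        · exact (((S.cont w).comp ((hΦ a).comp
            (continuous_id.prodMk continuous_const))).abs).intervalIntegrable _ _
        · refine (continuous_const.mul ?_).intervalIntegrable _ _
          refine continuous_list_sum _ fun l' _ => ?_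
          exact avg_flow_continuous hΦ r l (S.cont _).abs a p
      refine h1.trans (le_of_eq ?_)
      rw [intervalIntegral.integral_const_mul]
      congr 1
      have h2 : ∀ L : List (List κ), ∫ t in (0 : ℝ)..r,
          (L.map fun l' => avg Φ r l (fun q => |S.ev (S.it l' w) q|) (Φ a t p)).sum =
          (L.map fun l' => avg Φ r (a :: l) (fun q => |S.ev (S.it l' w) q|) p).sum := by
        intro L
        induction L with
        | nil => simp
        | cons l' L ihL =>
          simp only [List.map_cons, List.sum_cons]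
          rw [intervalIntegral.integral_add
            ((avg_flow_continuous hΦ r l (S.cont _).abs a p).intervalIntegrable _ _)
            ((continuous_list_sum _ fun l' _ =>
              avg_flow_continuous hΦ r l (S.cont _).abs a p).intervalIntegrable _ _), ihL]
          rfl
      exact h2 _
    have k1 := key u
    have k2 := key (S.X a u)
    have e0 : ∀ w : A, 0 ≤ ∫ t in (0 : ℝ)..r, |S.ev w (Φ a t p)| := fun w =>
      intervalIntegral.integral_nonneg hr.le fun t _ => abs_nonneg _
    rw [List.sublists'_cons, List.map_append, List.sum_append, List.length_cons, pow_succ,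
      List.map_map]
    have h3 : |S.ev u p| ≤ c * ((∫ t in (0 : ℝ)..r, |S.ev u (Φ a t p)|) +
        ∫ t in (0 : ℝ)..r, |S.ev (S.X a u) (Φ a t p)|) := by
      have := mul_le_mul_of_nonneg_right hc1 (e0 u)
      have := mul_le_mul_of_nonneg_right hc2 (e0 (S.X a u))
      linarith
    refine h3.trans ?_
    have h4 := mul_le_mul_of_nonneg_left (add_le_add k1 k2) hc0
    refine h4.trans (le_of_eq ?_)
    have h5 : ((l.sublists'.map ((fun l' => avg Φ r (a :: l) (fun q => |S.ev (S.it l' u) q|) p) ∘
        List.cons a)).sum) =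
        (l.sublists'.map fun l' => avg Φ r (a :: l)
          (fun q => |S.ev (S.it l' (S.X a u)) q|) p).sum := rfl
    rw [h5]
    ring

include hΦ in
/-- **the Sobolev inequality.** -/
theorem sobolev [MeasurableSpace N] {μ : Measure N} (h0 : ∀ a p, Φ a 0 p = p) {r C : ℝ}
    (hr : 0 < r) (l : List κ)
    (hloc : ∀ F : N → ℝ, Continuous F → (∀ p, 0 ≤ F p) → ∀ p, avg Φ r l F p ≤ C * ∫ q, F q ∂μ)
    (u : A) (p : N) :
    |S.ev u p| ≤ (max (1 / r) 1) ^ l.length * C *
      (l.sublists'.map fun l' => ∫ q, |S.ev (S.it l' u) q| ∂μ).sum := by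
  refine (S.abs_le_avg hΦ h0 hr l u p).trans ?_
  have hc : (0 : ℝ) ≤ (max (1 / r) 1) ^ l.length := by positivity
  rw [mul_assoc]
  refine mul_le_mul_of_nonneg_left ?_ hc
  rw [← List.sum_map_mul_left]
  exact List.sum_le_sum fun l' _ => hloc _ (S.cont _).abs (fun _ => abs_nonneg _) p

end FlowDer

/-! ### interpolation along a flow -/

/-- **Landau's inequality** on the line. -/
theorem landau {f f' f'' : ℝ → ℝ} (hf : ∀ t, HasDerivAt f (f' t) t)
    (hf' : ∀ t, HasDerivAt f' (f'' t) t) {A B : ℝ} (hA : ∀ t, |f t| ≤ A) (hB : ∀ t, |f'' t| ≤ B)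
    (t : ℝ) : f' t ^ 2 ≤ 8 * A * B := by
  have hA0 : 0 ≤ A := (abs_nonneg _).trans (hA 0)
  have hB0 : 0 ≤ B := (abs_nonneg _).trans (hB 0)
  -- for every step `h`
  have key : ∀ h : ℝ, 0 < h → |f' t| ≤ 2 * A / h + B * h := by
    intro h hh
    obtain ⟨c, hc, hc'⟩ := exists_hasDerivAt_eq_slope f f' (by linarith : t < t + h)
      (continuousOn_of_forall_continuousAt fun s _ => (hf s).continuousAt)
      (fun s _ => hf s)
    have h1 : |f' c| ≤ 2 * A / h := by
      rw [hc', abs_div, add_sub_cancel_left, abs_of_pos hh]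
      refine div_le_div_of_nonneg_right ?_ hh.le
      have := abs_sub (f (t + h)) (f t)
      have := hA (t + h)
      have := hA t
      linarith
    have h2 : |f' t - f' c| ≤ B * h := by
      have h3 : ‖f' c - f' t‖ ≤ B * ‖c - t‖ :=
        Convex.norm_image_sub_le_of_norm_hasDerivWithin_le (s := Set.univ)
          (fun x _ => (hf' x).hasDerivWithinAt) (fun x _ => hB x) convex_univ (mem_univ t)
          (mem_univ c)
      rw [Real.norm_eq_abs, Real.norm_eq_abs, abs_sub_comm] at h3
      refine h3.trans (mul_le_mul_of_nonneg_left ?_ hB0)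
      rw [abs_of_pos (by linarith [hc.1])]
      linarith [hc.2]
    have := abs_sub_abs_le_abs_sub (f' t) (f' c)
    linarith
  rw [← sq_abs]
  · rcases eq_or_lt_of_le hB0 with hB' | hB'
    · have h1 : |f' t| ≤ 0 := by
        refine le_of_forall_pos_le_add fun ε hε => ?_
        have h2 := key ((2 * A + 1) / ε) (by positivity)
        rw [← hB', zero_mul, add_zero] at h2
        refine h2.trans ?_
        rw [zero_add, div_div_eq_mul_div, div_le_iff₀ (by positivity)]
        nlinarith
      have h2 : |f' t| = 0 := le_antisymm h1 (abs_nonneg _)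
      rw [h2, ← hB']
      simp
    · rcases eq_or_lt_of_le hA0 with hA' | hA'
      · have h1 : |f' t| ≤ 0 := by
          refine le_of_forall_pos_le_add fun ε hε => ?_
          have h2 := key (ε / B) (by positivity)
          rw [← hA', mul_zero, zero_div, zero_add, mul_div_cancel₀ _ hB'.ne'] at h2
          rwa [zero_add]
        have h2 : |f' t| = 0 := le_antisymm h1 (abs_nonneg _)
        rw [h2, ← hA']
        simp
      · have hs := Real.sqrt_pos.2 (div_pos (mul_pos two_pos hA') hB')
        have hs2 : Real.sqrt (2 * A / B) ^ 2 = 2 * A / B := Real.sq_sqrt (by positivity)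
        have h1 := key _ hs
        set s := Real.sqrt (2 * A / B) with hsdef
        have h2 : 2 * A / s = B * s := by
          rw [div_eq_iff hs.ne', mul_assoc, ← sq, hs2]
          field_simp
        rw [h2] at h1
        have h3 : |f' t| ^ 2 ≤ (B * s + B * s) ^ 2 := pow_le_pow_left₀ (abs_nonneg _) h1 2
        refine h3.trans (le_of_eq ?_)
        have h4 : (B * s + B * s) ^ 2 = 4 * B ^ 2 * s ^ 2 := by ring
        rw [h4, hs2]
        field_simp
        ring

end Vale.Agent.P207.H955
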