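import Vale.Agent.P207.H955.Rel
import Vale.Agent.P207.H395.NSys

/-!
# Rellich's property of the Hilbert space system of a system of flows
-/

open MeasureTheory intervalIntegral Set Filter Topology

noncomputable section

namespace Vale.Agent.P207.H955

open H395

variable {ι : Type} [Fintype ι] {N : Type} [TopologicalSpace N] [CompactSpace N] [T2Space N]
  [MeasurableSpace N] [BorelSpace N] {μ : Measure N} [IsFiniteMeasure μ] [μ.WeaklyRegular]

/-- **Rellich's property from the local averages**, for any Hilbert space system on `L²` whose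
groups are the compositions with the flows. -/
theorem rel_of_loc (S : NSys ι N μ) (hS : S.Loc) (Q : HSys ι (Lp ℝ 2 μ))
    (hQ : ∀ a t (F : C(N, ℝ)), Q.U a t (ContinuousMap.toLp 2 μ ℝ F) =
      ContinuousMap.toLp 2 μ ℝ (F.comp (fl S.cont a t))) : Q.Rel := by
  obtain ⟨l, r, C, hr, h⟩ := hS
  have h1 := rellich (hΦ := S.cont) (U := Q.U) (fun a t u => (Q.U_norm a t u).le)
    (fun a u => Q.continuous_U a u) hQ hr (le_max_right C 0) l
    (fun F hF hF0 p => (h F hF hF0 p).trans
      (mul_le_mul_of_nonneg_right (le_max_left _ _) (integral_nonneg hF0))) 1 1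
  refine h1.subset ?_
  rintro u ⟨hu, hu'⟩
  exact ⟨hu, fun a t => by rw [one_mul]; exact hu' a t⟩

omit [T2Space N] [μ.WeaklyRegular] in
/-- composition of the class of a continuous function with a flow map. -/
theorem compMeasurePreserving_toLp (S : NSys ι N μ) (a : ι) (t : ℝ) (F : C(N, ℝ)) :
    Lp.compMeasurePreserving (S.Φ a t) (S.mp a t) (ContinuousMap.toLp 2 μ ℝ F) =
      ContinuousMap.toLp 2 μ ℝ (F.comp (fl S.cont a t)) := by
  refine Lp.ext ?_
  have h1 := Lp.coeFn_compMeasurePreserving (ContinuousMap.toLp 2 μ ℝ F : Lp ℝ 2 μ) (S.mp a t)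
  have h2 := (S.mp a t).quasiMeasurePreserving.ae_eq_comp
    (ContinuousMap.coeFn_toLp μ (𝕜 := ℝ) (p := 2) F)
  have h3 := ContinuousMap.coeFn_toLp μ (𝕜 := ℝ) (p := 2) (F.comp (fl S.cont a t))
  filter_upwards [h1, h2, h3] with p h1 h2 h3
  rw [h1, h2, h3]
  rfl

theorem rel_of_loc' (S : NSys ι N μ) (hS : S.Loc) (Q : HSys ι (Lp ℝ 2 μ))
    (hQ : ∀ a t (u : Lp ℝ 2 μ), Q.U a t u = Lp.compMeasurePreserving (S.Φ a t) (S.mp a t) u) :
    Q.Rel :=
  rel_of_loc S hS Q fun a t F => by rw [hQ, compMeasurePreserving_toLp]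

end Vale.Agent.P207.H955
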