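import Vale.Agent.P207.H955.Sob

/-!
# Rellich's theorem for a system of flows
-/

open MeasureTheory intervalIntegral Set Filter Topology

noncomputable section

namespace Vale.Agent.P207.H955

/-! ### operators with bounded sums of squares -/

section hs

variable {H G : Type*} [NormedAddCommGroup H] [InnerProductSpace ℝ H] [NormedAddCommGroup G]
  [NormedSpace ℝ G]

theorem exists_small_compl (T : H →L[ℝ] G) {M : ℝ}
    (hM : ∀ (n : ℕ) (e : Fin n → H), Orthonormal ℝ e → ∑ i, ‖T (e i)‖ ^ 2 ≤ M) {ε : ℝ}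
    (hε : 0 < ε) : ∃ (n : ℕ) (e : Fin n → H), Orthonormal ℝ e ∧
      ∀ x, ‖x‖ = 1 → (∀ i, inner ℝ (e i) x = 0) → ‖T x‖ ^ 2 ≤ ε := by
  by_contra hcon
  push Not at hcon
  have key : ∀ n : ℕ, ∃ e : Fin n → H, Orthonormal ℝ e ∧ (n : ℝ) * ε ≤ ∑ i, ‖T (e i)‖ ^ 2 := by
    intro n
    induction n with
    | zero => exact ⟨Fin.elim0, ⟨fun i => i.elim0, fun i => i.elim0⟩, by simp⟩
    | succ n ih =>
      obtain ⟨e, he, hs⟩ := ih
      obtain ⟨x, hx, hx', hTx⟩ := hcon n e he
      refine ⟨Fin.snoc e x, ?_, ?_⟩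
      · constructor
        · intro i
          refine Fin.lastCases ?_ (fun j => ?_) i
          · rw [Fin.snoc_last]
            exact hx
          · rw [Fin.snoc_castSucc]
            exact he.1 j
        · intro i j hij
          revert hij
          refine Fin.lastCases ?_ (fun i' => ?_) i
          · refine Fin.lastCases ?_ (fun j' => ?_) j
            · intro h
              exact absurd rfl h
            · intro _
              rw [Fin.snoc_last, Fin.snoc_castSucc, real_inner_comm]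
              exact hx' j'
          · refine Fin.lastCases ?_ (fun j' => ?_) j
            · intro _
              rw [Fin.snoc_last, Fin.snoc_castSucc]
              exact hx' i'
            · intro h
              rw [Fin.snoc_castSucc, Fin.snoc_castSucc]
              exact he.2 fun h' => h (by rw [h'])
      · rw [Fin.sum_univ_castSucc]
        simp only [Fin.snoc_castSucc, Fin.snoc_last]
        push_cast
        linarith
  obtain ⟨n, hn⟩ := exists_nat_gt (M / ε)
  obtain ⟨e, he, hs⟩ := key n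
  have h1 := hM n e he
  rw [div_lt_iff₀ hε] at hn
  linarith

/-- **an operator with bounded sums of squares maps bounded sets to totally bounded sets.** -/
theorem totallyBounded_image_hs (T : H →L[ℝ] G) {M : ℝ}
    (hM : ∀ (n : ℕ) (e : Fin n → H), Orthonormal ℝ e → ∑ i, ‖T (e i)‖ ^ 2 ≤ M) (R : ℝ) :
    TotallyBounded (T '' Metric.closedBall 0 R) := by
  rw [Metric.totallyBounded_iff]
  intro ε hε
  rcases lt_or_ge R 0 with hR | hR
  · rw [Metric.closedBall_eq_empty.2 hR, image_empty]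
    exact ⟨∅, finite_empty, empty_subset _⟩
  set δ : ℝ := ε / (2 * (R + 1)) with hδ
  have hδ0 : 0 < δ := by positivity
  obtain ⟨n, e, he, hsm⟩ := exists_small_compl T hM (pow_pos hδ0 2)
  set V : Submodule ℝ H := Submodule.span ℝ (range e) with hV
  have : FiniteDimensional ℝ V := FiniteDimensional.span_of_finite ℝ (finite_range e)
  -- small on the complement
  have hcomp : ∀ y ∈ Vᗮ, ‖T y‖ ≤ δ * ‖y‖ := by
    intro y hy
    rcases eq_or_ne y 0 with rfl | hy0
    · simp
    · have hn : ‖y‖ ≠ 0 := norm_ne_zero_iff.2 hy0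
      have h1 := hsm (‖y‖⁻¹ • y) (by rw [norm_smul, norm_inv, norm_norm, inv_mul_cancel₀ hn])
        (fun i => by
          rw [inner_smul_right]
          rw [(Submodule.mem_orthogonal _ _).1 hy (e i) (Submodule.subset_span ⟨i, rfl⟩), mul_zero])
      have h2 : ‖T (‖y‖⁻¹ • y)‖ ≤ δ := (sq_le_sq₀ (norm_nonneg _) hδ0.le).1 h1
      rw [map_smul, norm_smul, norm_inv, norm_norm, inv_mul_le_iff₀ (by positivity)] at h2
      linarith
  -- the compact part
  have hK : IsCompact (T '' ((fun v : V => (v : H)) '' Metric.closedBall (0 : V) R)) :=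
    ((isCompact_closedBall (0 : V) R).image continuous_subtype_val).image T.continuous
  obtain ⟨t, ht, htc⟩ := Metric.totallyBounded_iff.1 hK.totallyBounded (ε / 2) (half_pos hε)
  refine ⟨t, ht, ?_⟩
  rintro _ ⟨x, hx, rfl⟩
  rw [mem_closedBall_zero_iff] at hx
  set p : V := V.orthogonalProjectionOnto x with hp
  have hp1 : ‖p‖ ≤ R := (V.norm_orthogonalProjectionOnto_apply_le x).trans hx
  have hq : x - (p : H) ∈ Vᗮ := V.sub_starProjection_mem_orthogonal x
  have hq1 : ‖x - (p : H)‖ ≤ R := by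
    have h1 : ‖x‖ ^ 2 = ‖(p : H)‖ ^ 2 + ‖x - (p : H)‖ ^ 2 := by
      have h2 : inner ℝ (p : H) (x - (p : H)) = 0 :=
        (Submodule.mem_orthogonal _ _).1 hq _ p.2
      have h3 : x = (p : H) + (x - (p : H)) := by abel
      conv_lhs => rw [h3]
      rw [sq, sq, sq]
      exact norm_add_sq_eq_norm_sq_add_norm_sq_of_inner_eq_zero _ _ h2
    have h4 : ‖x - (p : H)‖ ^ 2 ≤ ‖x‖ ^ 2 := by
      rw [h1]
      have := sq_nonneg ‖(p : H)‖
      linarith
    exact ((sq_le_sq₀ (norm_nonneg _) (norm_nonneg _)).1 h4).trans hx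
  have hmem : T (p : H) ∈ T '' ((fun v : V => (v : H)) '' Metric.closedBall (0 : V) R) :=
    ⟨p, ⟨p, by rw [mem_closedBall_zero_iff]; exact hp1, rfl⟩, rfl⟩
  have h5 := htc hmem
  rw [mem_iUnion₂] at h5 ⊢
  obtain ⟨y, hy, hy'⟩ := h5
  refine ⟨y, hy, ?_⟩
  rw [Metric.mem_ball] at hy' ⊢
  have h6 : dist (T x) (T (p : H)) ≤ ε / 2 := by
    rw [dist_eq_norm, ← map_sub]
    refine (hcomp _ hq).trans ?_
    have h7 : δ * ‖x - (p : H)‖ ≤ δ * (R + 1) := by
      refine mul_le_mul_of_nonneg_left ?_ hδ0.le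
      linarith
    refine h7.trans (le_of_eq ?_)
    rw [hδ]
    field_simp
  have := dist_triangle (T x) (T (p : H)) y
  linarith

end hs

/-! ### bounded operators from L² to L^∞ -/

section linf

variable {N : Type*} [MeasurableSpace N] {μ : Measure N} [IsFiniteMeasure μ]

omit [IsFiniteMeasure μ] in
theorem norm_sq_eq_integral (f : Lp ℝ 2 μ) : ‖f‖ ^ 2 = ∫ p, f p ^ 2 ∂μ := by
  rw [← real_inner_self_eq_norm_sq, L2.inner_def]
  refine integral_congr_ae (Eventually.of_forall fun p => ?_)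
  simp only [RCLike.inner_apply, conj_trivial, sq]

omit [IsFiniteMeasure μ] in
theorem integrable_sq (f : Lp ℝ 2 μ) : Integrable (fun p => f p ^ 2) μ :=
  (Lp.memLp f).integrable_sq

/-- the sum of squares of a bounded operator from `L²` to `L^∞`. -/
theorem sum_sq_le_of_linf (T : Lp ℝ 2 μ →L[ℝ] Lp ℝ 2 μ) {C : ℝ} (hC : 0 ≤ C)
    (hT : ∀ u, ∀ᵐ p ∂μ, |T u p| ≤ C * ‖u‖) (n : ℕ) (e : Fin n → Lp ℝ 2 μ)
    (he : Orthonormal ℝ e) : ∑ i, ‖T (e i)‖ ^ 2 ≤ C ^ 2 * μ.real univ := by
  -- a countable dense set of coefficients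
  obtain ⟨D, hDc, hDd⟩ := TopologicalSpace.exists_countable_dense (EuclideanSpace ℝ (Fin n))
  have h1 : ∀ᵐ p ∂μ, ∀ c ∈ D, |∑ i, c i * T (e i) p| ≤ C * ‖c‖ := by
    rw [ae_ball_iff hDc]
    intro c _
    have h2 : T (∑ i, c i • e i) = ∑ i, c i • T (e i) := by
      rw [map_sum]
      exact Finset.sum_congr rfl fun i _ => map_smul _ _ _
    have h3 : (fun p => T (∑ i, c i • e i) p) =ᵐ[μ] fun p => ∑ i, c i * T (e i) p := by
      rw [h2]
      have h4 := Lp.coeFn_finsetSum (μ := μ) (p := 2) Finset.univ (fun i => c i • T (e i))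
      have h5 : ∀ᵐ p ∂μ, ∀ i, (c i • T (e i) : Lp ℝ 2 μ) p = c i * T (e i) p := by
        rw [ae_all_iff]
        intro i
        filter_upwards [Lp.coeFn_smul (c i) (T (e i))] with p hp
        rw [hp]
        rfl
      filter_upwards [h4, h5] with p hp hp'
      rw [hp, Finset.sum_apply]
      exact Finset.sum_congr rfl fun i _ => hp' i
    have h5 : ‖∑ i, c i • e i‖ = ‖c‖ := by
      rw [← sq_eq_sq₀ (norm_nonneg _) (norm_nonneg _), ← real_inner_self_eq_norm_sq,
        he.inner_sum, EuclideanSpace.norm_sq_eq]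
      refine Finset.sum_congr rfl fun i _ => ?_
      rw [conj_trivial, Real.norm_eq_abs, sq_abs, sq]
    filter_upwards [hT (∑ i, c i • e i), h3] with p hp hp'
    rw [← hp', ← h5]
    exact hp
  have h2 : ∀ᵐ p ∂μ, ∑ i, T (e i) p ^ 2 ≤ C ^ 2 := by
    filter_upwards [h1] with p hp
    have h3 : ∀ c : EuclideanSpace ℝ (Fin n), |∑ i, c i * T (e i) p| ≤ C * ‖c‖ := by
      intro c
      have hcl : IsClosed {c : EuclideanSpace ℝ (Fin n) | |∑ i, c i * T (e i) p| ≤ C * ‖c‖} := by
        refine isClosed_le ?_ (by fun_prop)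
        refine Continuous.abs ?_
        refine continuous_finsetSum _ fun i _ => ?_
        fun_prop
      have h4 := hcl.closure_subset_iff.2 (show D ⊆ _ from hp)
      rw [hDd.closure_eq] at h4
      exact h4 (mem_univ c)
    set g : EuclideanSpace ℝ (Fin n) := WithLp.toLp 2 fun i => T (e i) p with hg
    have h4 := h3 g
    have h5 : ∑ i, g i * T (e i) p = ‖g‖ ^ 2 := by
      rw [EuclideanSpace.norm_sq_eq]
      refine Finset.sum_congr rfl fun i _ => ?_
      rw [Real.norm_eq_abs, sq_abs, sq]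
    have h6 : ∑ i, T (e i) p ^ 2 = ‖g‖ ^ 2 := by
      rw [← h5]
      exact Finset.sum_congr rfl fun i _ => by rw [sq]
    rw [h5, abs_of_nonneg (sq_nonneg _)] at h4
    rw [h6]
    have h7 : ‖g‖ ≤ C := by
      rcases eq_or_lt_of_le (norm_nonneg g) with h0 | h0
      · rw [← h0]
        exact hC
      · rw [sq] at h4
        exact le_of_mul_le_mul_right h4 h0
    exact pow_le_pow_left₀ (norm_nonneg _) h7 2
  have h3 : ∑ i, ‖T (e i)‖ ^ 2 = ∫ p, ∑ i, T (e i) p ^ 2 ∂μ := by
    rw [integral_finsetSum _ fun i _ => integrable_sq _]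
    exact Finset.sum_congr rfl fun i _ => norm_sq_eq_integral _
  rw [h3]
  have h4 := integral_mono_ae (integrable_finsetSum _ fun i _ => integrable_sq (T (e i)))
    (integrable_const (C ^ 2)) h2
  rw [MeasureTheory.integral_const, smul_eq_mul, mul_comm] at h4
  exact h4

/-- a bound almost everywhere is a closed condition. -/
theorem ae_bound_of_dense (T : Lp ℝ 2 μ →L[ℝ] Lp ℝ 2 μ) {C : ℝ} {D : Set (Lp ℝ 2 μ)}
    (hD : Dense D) (h : ∀ u ∈ D, ∀ᵐ p ∂μ, |T u p| ≤ C * ‖u‖) (u : Lp ℝ 2 μ) :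
    ∀ᵐ p ∂μ, |T u p| ≤ C * ‖u‖ := by
  have key : ∀ u : Lp ℝ 2 μ, (∀ᵐ p ∂μ, |T u p| ≤ C * ‖u‖) ↔
      |T u| ≤ ‖u‖ • (Lp.const 2 μ C : Lp ℝ 2 μ) := by
    intro u
    rw [← Lp.coeFn_le]
    have h1 := Lp.coeFn_abs (T u)
    have h2 := Lp.coeFn_smul ‖u‖ (Lp.const 2 μ C : Lp ℝ 2 μ)
    have h3 : (Lp.const 2 μ C : Lp ℝ 2 μ) =ᵐ[μ] Function.const N C := Lp.coeFn_const 2 μ C
    constructor
    · intro h
      filter_upwards [h, h1, h2, h3] with p hp hp1 hp2 hp3
      rw [hp1, hp2, Pi.smul_apply, hp3, Function.const_apply, smul_eq_mul, mul_comm]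
      exact hp
    · intro h
      filter_upwards [h, h1, h2, h3] with p hp hp1 hp2 hp3
      rw [hp1, hp2, Pi.smul_apply, hp3, Function.const_apply, smul_eq_mul, mul_comm] at hp
      exact hp
  have hcl : IsClosed {u : Lp ℝ 2 μ | |T u| ≤ ‖u‖ • (Lp.const 2 μ C : Lp ℝ 2 μ)} :=
    isClosed_le (T.continuous.sup T.continuous.neg) (continuous_norm.smul continuous_const)
  have h4 := hcl.closure_subset_iff.2 (show D ⊆ _ from fun u hu => (key u).1 (h u hu))
  rw [hD.closure_eq] at h4
  exact (key u).2 (h4 (mem_univ u))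

end linf

/-! ### averages over flows of isometries -/

section avg

variable {H κ : Type*} [NormedAddCommGroup H] [NormedSpace ℝ H] [CompleteSpace H]
  {U : κ → ℝ → H →L[ℝ] H} (hU1 : ∀ a t u, ‖U a t u‖ ≤ ‖u‖)
  (hU2 : ∀ a u, Continuous fun t => U a t u)

/-- the integral along one flow. -/
def intL {r : ℝ} (hr : 0 ≤ r) (a : κ) : H →L[ℝ] H :=
  LinearMap.mkContinuous
    { toFun := fun u => ∫ t in (0 : ℝ)..r, U a t u
      map_add' := fun u v => by
        simp only [map_add]
        exact intervalIntegral.integral_add ((hU2 a u).intervalIntegrable _ _)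
          ((hU2 a v).intervalIntegrable _ _)
      map_smul' := fun c u => by
        simp only [map_smul, RingHom.id_apply]
        exact intervalIntegral.integral_smul c _ } r (fun u => by
      have h := intervalIntegral.norm_integral_le_of_norm_le_const (a := 0) (b := r)
        (f := fun t => U a t u) (C := ‖u‖) (fun t _ => hU1 a t u)
      rw [sub_zero, abs_of_nonneg hr] at h
      rw [mul_comm]
      exact h)

omit [CompleteSpace H] in
theorem intL_apply {r : ℝ} (hr : 0 ≤ r) (a : κ) (u : H) :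
    intL hU1 hU2 hr a u = ∫ t in (0 : ℝ)..r, U a t u := rfl

/-- the iterated integral along the flows of a list. -/
def avgL {r : ℝ} (hr : 0 ≤ r) : List κ → H →L[ℝ] H
  | [] => ContinuousLinearMap.id ℝ H
  | a :: l => (intL hU1 hU2 hr a).comp (avgL hr l)

theorem norm_avgL_sub {r : ℝ} (hr : 0 ≤ r) (l : List κ) {u : H} {B : ℝ}
    (hu : ∀ a t, ‖U a t u - u‖ ≤ B * |t|) :
    ‖avgL hU1 hU2 hr l u - r ^ l.length • u‖ ≤ l.length * B * r ^ (l.length + 1) := by
  induction l with
  | nil => simp [avgL]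
  | cons a l ih =>
    have h1 : avgL hU1 hU2 hr (a :: l) u - r ^ (a :: l).length • u =
        (∫ t in (0 : ℝ)..r, U a t (avgL hU1 hU2 hr l u - r ^ l.length • u)) +
        r ^ l.length • ∫ t in (0 : ℝ)..r, (U a t u - u) := by
      have e1 : (∫ t in (0 : ℝ)..r, U a t (avgL hU1 hU2 hr l u - r ^ l.length • u)) =
          (∫ t in (0 : ℝ)..r, U a t (avgL hU1 hU2 hr l u)) -
            r ^ l.length • ∫ t in (0 : ℝ)..r, U a t u := by
        have i1 : IntervalIntegrable (fun t => U a t (avgL hU1 hU2 hr l u)) volume 0 r :=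
          (hU2 a _).intervalIntegrable _ _
        have i2 : IntervalIntegrable (fun t => r ^ l.length • U a t u) volume 0 r :=
          ((hU2 a u).const_smul _).intervalIntegrable _ _
        rw [← intervalIntegral.integral_smul, ← intervalIntegral.integral_sub i1 i2]
        refine intervalIntegral.integral_congr fun t _ => ?_
        simp only [map_sub, map_smul]
      have e2 : (∫ t in (0 : ℝ)..r, (U a t u - u)) = (∫ t in (0 : ℝ)..r, U a t u) - r • u := by
        rw [intervalIntegral.integral_sub ((hU2 a u).intervalIntegrable _ _) (by simp),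
          intervalIntegral.integral_const, sub_zero]
      rw [e1, e2, smul_sub, List.length_cons, pow_succ, mul_smul]
      change (∫ t in (0 : ℝ)..r, U a t (avgL hU1 hU2 hr l u)) - _ = _
      abel
    have h2 : ‖∫ t in (0 : ℝ)..r, U a t (avgL hU1 hU2 hr l u - r ^ l.length • u)‖ ≤
        (l.length * B * r ^ (l.length + 1)) * r := by
      have h := intervalIntegral.norm_integral_le_of_norm_le_const (a := 0) (b := r)
        (f := fun t => U a t (avgL hU1 hU2 hr l u - r ^ l.length • u))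
        (C := l.length * B * r ^ (l.length + 1)) (fun t _ => (hU1 a t _).trans ih)
      rwa [sub_zero, abs_of_nonneg hr] at h
    have h3 : ‖∫ t in (0 : ℝ)..r, (U a t u - u)‖ ≤ B * r * r := by
      have h := intervalIntegral.norm_integral_le_of_norm_le_const (a := 0) (b := r)
        (f := fun t => U a t u - u) (C := B * r) (fun t ht => by
          rw [uIoc_of_le hr] at ht
          refine (hu a t).trans ?_
          have hB : 0 ≤ B := by
            have := (norm_nonneg _).trans (hu a 1)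
            simpa using this
          exact mul_le_mul_of_nonneg_left (by rw [abs_of_pos ht.1]; exact ht.2) hB)
      rwa [sub_zero, abs_of_nonneg hr] at h
    rw [h1]
    refine (norm_add_le _ _).trans ?_
    rw [norm_smul, norm_pow, Real.norm_of_nonneg hr]
    have h4 := mul_le_mul_of_nonneg_left h3 (pow_nonneg hr l.length)
    refine (add_le_add h2 h4).trans (le_of_eq ?_)
    rw [List.length_cons]
    push_cast
    ring

end avg

/-! ### the link with the pointwise averages -/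

section link

variable {N κ : Type*} [TopologicalSpace N] [CompactSpace N] {Φ : κ → ℝ → N → N}
  (hΦ : ∀ a, Continuous fun x : ℝ × N => Φ a x.1 x.2)

/-- the flow map. -/
def fl (a : κ) (t : ℝ) : C(N, N) :=
  ⟨Φ a t, (hΦ a).comp (continuous_const.prodMk continuous_id)⟩

omit [CompactSpace N] in
theorem comp_fl_continuous (F : C(N, ℝ)) (a : κ) : Continuous fun t => F.comp (fl hΦ a t) := by
  have h : Continuous fun x : ℝ × N => F (Φ a x.1 x.2) := F.continuous.comp (hΦ a)
  exact ContinuousMap.continuous_of_continuous_uncurry _ h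

/-- the average as a continuous function. -/
def avgC (r : ℝ) (l : List κ) (F : C(N, ℝ)) : C(N, ℝ) :=
  ⟨avg Φ r l F, avg_continuous hΦ r l F.continuous⟩

theorem avgC_cons (r : ℝ) (a : κ) (l : List κ) (F : C(N, ℝ)) :
    avgC hΦ r (a :: l) F = ∫ t in (0 : ℝ)..r, (avgC hΦ r l F).comp (fl hΦ a t) := by
  ext p
  have h1 : IntervalIntegrable (fun t => (avgC hΦ r l F).comp (fl hΦ a t)) volume 0 r :=
    (comp_fl_continuous hΦ _ a).intervalIntegrable _ _
  have h2 := ContinuousLinearMap.intervalIntegral_comp_comm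
    (ContinuousMap.evalCLM ℝ p : C(N, ℝ) →L[ℝ] ℝ) h1
  exact h2

variable [MeasurableSpace N] [BorelSpace N] {μ : Measure N} [IsFiniteMeasure μ]
  {U : κ → ℝ → Lp ℝ 2 μ →L[ℝ] Lp ℝ 2 μ} (hU1 : ∀ a t u, ‖U a t u‖ ≤ ‖u‖)
  (hU2 : ∀ a u, Continuous fun t => U a t u)
  (hUC : ∀ a t (F : C(N, ℝ)), U a t (ContinuousMap.toLp 2 μ ℝ F) =
    ContinuousMap.toLp 2 μ ℝ (F.comp (fl hΦ a t)))

include hUC in
theorem avgL_toLp {r : ℝ} (hr : 0 ≤ r) (l : List κ) (F : C(N, ℝ)) :
    avgL hU1 hU2 hr l (ContinuousMap.toLp 2 μ ℝ F) =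
      ContinuousMap.toLp 2 μ ℝ (avgC hΦ r l F) := by
  induction l with
  | nil => rfl
  | cons a l ih =>
    have h1 : IntervalIntegrable (fun t => (avgC hΦ r l F).comp (fl hΦ a t)) volume 0 r :=
      (comp_fl_continuous hΦ _ a).intervalIntegrable _ _
    have h2 := ContinuousLinearMap.intervalIntegral_comp_comm
      (ContinuousMap.toLp 2 μ ℝ : C(N, ℝ) →L[ℝ] Lp ℝ 2 μ) h1
    rw [avgC_cons, ← h2]
    change intL hU1 hU2 hr a (avgL hU1 hU2 hr l _) = _
    rw [ih, intL_apply]
    exact intervalIntegral.integral_congr fun t _ => hUC a t _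

omit [IsFiniteMeasure μ] in
theorem norm_toLp_sq [IsFiniteMeasure μ] (F : C(N, ℝ)) :
    ‖(ContinuousMap.toLp 2 μ ℝ F : Lp ℝ 2 μ)‖ ^ 2 = ∫ p, F p ^ 2 ∂μ := by
  rw [norm_sq_eq_integral]
  refine integral_congr_ae ?_
  filter_upwards [ContinuousMap.coeFn_toLp μ (𝕜 := ℝ) (p := 2) F] with p hp
  rw [hp]

/-- Cauchy-Schwarz. -/
theorem integral_abs_le (F : C(N, ℝ)) : ∫ p, |F p| ∂μ ≤
    ‖(ContinuousMap.toLp 2 μ ℝ (1 : C(N, ℝ)) : Lp ℝ 2 μ)‖ *
      ‖(ContinuousMap.toLp 2 μ ℝ F : Lp ℝ 2 μ)‖ := by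
  set G : C(N, ℝ) := ⟨fun p => |F p|, F.continuous.abs⟩ with hG
  have h1 : inner ℝ (ContinuousMap.toLp 2 μ ℝ (1 : C(N, ℝ)) : Lp ℝ 2 μ)
      (ContinuousMap.toLp 2 μ ℝ G : Lp ℝ 2 μ) = ∫ p, |F p| ∂μ := by
    rw [L2.inner_def]
    refine integral_congr_ae ?_
    filter_upwards [ContinuousMap.coeFn_toLp μ (𝕜 := ℝ) (p := 2) (1 : C(N, ℝ)),
      ContinuousMap.coeFn_toLp μ (𝕜 := ℝ) (p := 2) G] with p hp hp'
    rw [hp, hp']
    simp [hG]
  have h2 : ‖(ContinuousMap.toLp 2 μ ℝ G : Lp ℝ 2 μ)‖ =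
      ‖(ContinuousMap.toLp 2 μ ℝ F : Lp ℝ 2 μ)‖ := by
    rw [← sq_eq_sq₀ (norm_nonneg _) (norm_nonneg _), norm_toLp_sq, norm_toLp_sq]
    exact integral_congr_ae (Eventually.of_forall fun p => sq_abs _)
  rw [← h1, ← h2]
  exact (le_abs_self _).trans (abs_real_inner_le_norm _ _)

omit [CompactSpace N] [BorelSpace N] [IsFiniteMeasure μ] [MeasurableSpace N] in
include hΦ in
theorem avg_mono_r {r r' : ℝ} (hr : 0 ≤ r) (hrr : r ≤ r') (l : List κ) {F : N → ℝ}
    (hF : Continuous F) (h : ∀ p, 0 ≤ F p) (p : N) : avg Φ r l F p ≤ avg Φ r' l F p := by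
  induction l generalizing p with
  | nil => exact le_rfl
  | cons a l ih =>
    have h1 : ∫ t in (0 : ℝ)..r, avg Φ r l F (Φ a t p) ≤
        ∫ t in (0 : ℝ)..r, avg Φ r' l F (Φ a t p) :=
      intervalIntegral.integral_mono_on hr
        ((avg_flow_continuous hΦ r l hF a p).intervalIntegrable _ _)
        ((avg_flow_continuous hΦ r' l hF a p).intervalIntegrable _ _) fun t _ => ih _
    refine h1.trans ?_
    change _ ≤ ∫ t in (0 : ℝ)..r', avg Φ r' l F (Φ a t p)
    rw [← intervalIntegral.integral_add_adjacent_intervals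
      ((avg_flow_continuous hΦ r' l hF a p).intervalIntegrable 0 r)
      ((avg_flow_continuous hΦ r' l hF a p).intervalIntegrable r r')]
    have := intervalIntegral.integral_nonneg (f := fun t => avg Φ r' l F (Φ a t p))
      (μ := volume) hrr fun t _ => avg_nonneg (hr.trans hrr) l h _
    linarith

omit [CompactSpace N] [BorelSpace N] [IsFiniteMeasure μ] [MeasurableSpace N]
  [TopologicalSpace N] in
theorem avg_neg [TopologicalSpace N] (r : ℝ) (l : List κ) (F : N → ℝ) (p : N) :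
    avg Φ r l (fun q => -F q) p = -avg Φ r l F p := by
  induction l generalizing p with
  | nil => rfl
  | cons a l ih =>
    change ∫ t in (0 : ℝ)..r, avg Φ r l (fun q => -F q) (Φ a t p) =
      -∫ t in (0 : ℝ)..r, avg Φ r l F (Φ a t p)
    rw [← intervalIntegral.integral_neg]
    exact intervalIntegral.integral_congr fun t _ => ih _

include hU1 hU2 hUC in
/-- **Rellich's theorem.** -/
theorem rellich [μ.WeaklyRegular] [T4Space N] {r₀ C : ℝ} (hr₀ : 0 < r₀) (hC : 0 ≤ C)
    (l : List κ)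
    (hloc : ∀ F : N → ℝ, Continuous F → (∀ p, 0 ≤ F p) → ∀ p, avg Φ r₀ l F p ≤ C * ∫ q, F q ∂μ)
    (R B : ℝ) :
    TotallyBounded {u : Lp ℝ 2 μ | ‖u‖ ≤ R ∧ ∀ a t, ‖U a t u - u‖ ≤ B * |t|} := by
  rw [Metric.totallyBounded_iff]
  intro ε hε
  set B' : ℝ := max B 0 with hB'
  have hB : 0 ≤ B' := le_max_right _ _
  -- the radius
  set r : ℝ := min r₀ (ε / (2 * (l.length * B' + 1))) with hr
  have hpos : 0 < 2 * ((l.length : ℝ) * B' + 1) := by positivity
  have hr0 : 0 < r := lt_min hr₀ (by positivity)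
  have hr1 : (l.length : ℝ) * B' * r ≤ ε / 2 := by
    have h1 : r ≤ ε / (2 * (l.length * B' + 1)) := min_le_right _ _
    have h2 : (l.length : ℝ) * B' * r ≤ (l.length * B' + 1) * (ε / (2 * (l.length * B' + 1))) := by
      refine mul_le_mul (by linarith) h1 hr0.le (by positivity)
    refine h2.trans (le_of_eq ?_)
    field_simp
  set T := avgL hU1 hU2 hr0.le l with hT
  set M : ℝ := C * ‖(ContinuousMap.toLp 2 μ ℝ (1 : C(N, ℝ)) : Lp ℝ 2 μ)‖ with hM
  have hTb : ∀ u, ∀ᵐ p ∂μ, |T u p| ≤ M * ‖u‖ := by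
    refine ae_bound_of_dense T (ContinuousMap.toLp_denseRange ℝ μ ℝ (by norm_num)) ?_
    rintro _ ⟨F, rfl⟩
    rw [hT, avgL_toLp hΦ hU1 hU2 hUC]
    filter_upwards [ContinuousMap.coeFn_toLp μ (𝕜 := ℝ) (p := 2) (avgC hΦ r l F)] with p hp
    rw [hp]
    change |avg Φ r l F p| ≤ _
    have h1 : |avg Φ r l F p| ≤ avg Φ r l (fun q => |F q|) p := by
      rw [abs_le]
      constructor
      · have h2 := avg_mono hΦ hr0.le l (F := fun q => -|F q|) (G := F)
          F.continuous.abs.neg F.continuous (fun q => neg_abs_le _) p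
        rw [avg_neg] at h2
        exact h2
      · exact avg_mono hΦ hr0.le l F.continuous F.continuous.abs (fun q => le_abs_self _) p
    refine h1.trans ?_
    refine (avg_mono_r hΦ hr0.le (min_le_left _ _) l F.continuous.abs
      (fun q => abs_nonneg _) p).trans ?_
    refine (hloc _ F.continuous.abs (fun q => abs_nonneg _) p).trans ?_
    rw [hM, mul_assoc]
    exact mul_le_mul_of_nonneg_left (integral_abs_le F) hC
  have hM0 : 0 ≤ M := mul_nonneg hC (norm_nonneg _)
  have htb := totallyBounded_image_hs T (sum_sq_le_of_linf T hM0 hTb) R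
  have hrk : 0 < r ^ l.length := pow_pos hr0 _
  obtain ⟨t, htf, htc⟩ := Metric.totallyBounded_iff.1 htb (ε / 2 * r ^ l.length) (by positivity)
  refine ⟨(fun y => (r ^ l.length)⁻¹ • y) '' t, htf.image _, ?_⟩
  rintro u ⟨hu, huB⟩
  have h1 := htc ⟨u, mem_closedBall_zero_iff.2 hu, rfl⟩
  rw [mem_iUnion₂] at h1 ⊢
  obtain ⟨y, hy, hy'⟩ := h1
  refine ⟨_, ⟨y, hy, rfl⟩, ?_⟩
  have h2 := norm_avgL_sub hU1 hU2 hr0.le l (u := u) (B := B') fun a t =>
    (huB a t).trans (mul_le_mul_of_nonneg_right (le_max_left _ _) (abs_nonneg _))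
  rw [Metric.mem_ball, dist_eq_norm] at hy' ⊢
  have h3 : u - (r ^ l.length)⁻¹ • y =
      (r ^ l.length)⁻¹ • ((T u - y) - (T u - r ^ l.length • u)) := by
    have h4 : (T u - y) - (T u - r ^ l.length • u) = r ^ l.length • u - y := by abel
    rw [h4, smul_sub, smul_smul, inv_mul_cancel₀ hrk.ne', one_smul]
  rw [h3, norm_smul, norm_inv, Real.norm_of_nonneg hrk.le, inv_mul_lt_iff₀ hrk]
  have h5 : (l.length : ℝ) * B' * r ^ (l.length + 1) ≤ r ^ l.length * (ε / 2) := by
    have := mul_le_mul_of_nonneg_left hr1 hrk.le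
    calc (l.length : ℝ) * B' * r ^ (l.length + 1) = r ^ l.length * (l.length * B' * r) := by ring
      _ ≤ _ := this
  have h6 := norm_sub_le (T u - y) (T u - r ^ l.length • u)
  calc ‖(T u - y) - (T u - r ^ l.length • u)‖ ≤ _ := h6
    _ < ε / 2 * r ^ l.length + r ^ l.length * (ε / 2) := add_lt_add_of_lt_of_le hy' (h2.trans h5)
    _ = r ^ l.length * ε := by ring

end link

end Vale.Agent.P207.H955
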