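import Vale.Agent.P207.H955.RelSys

/-!
# The Sobolev inequality of a system of flows, in the norms of the system
-/

open MeasureTheory intervalIntegral Set Filter Topology

noncomputable section

namespace Vale.Agent.P207.H955

open H395

variable {ι : Type} [Fintype ι] {N : Type} [TopologicalSpace N] [CompactSpace N]
  [MeasurableSpace N] {μ : Measure N}

/-- the values of a system of flows. -/
def ofN (S : NSys ι N μ) : FlowDer S.Φ S.A where
  ev u p := (u : C(N, ℝ)) p
  X a u := S.X a u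
  cont u := (u : C(N, ℝ)).continuous
  der a u p t := by
    have h1 := S.der a u (S.Φ a t p)
    have h2 : HasDerivAt (fun s => (u : C(N, ℝ)) (S.Φ a (s - t) (S.Φ a t p)))
        ((S.X a u : C(N, ℝ)) (S.Φ a t p)) t := by
      have h3 : HasDerivAt (fun s => (u : C(N, ℝ)) (S.Φ a s (S.Φ a t p)))
        ((S.X a u : C(N, ℝ)) (S.Φ a t p)) (t - t) := by rw [sub_self]; exact h1
      exact h3.comp_sub_const t t
    refine h2.congr_of_eventuallyEq (Eventually.of_forall fun s => ?_)
    simp only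
    rw [← S.add, sub_add_cancel]

theorem cN_nonneg (S : NSys ι N μ) (s : ℕ) (u : S.A) : 0 ≤ S.cN s u := by
  induction s generalizing u with
  | zero => exact norm_nonneg _
  | succ s ih => exact add_nonneg (ih u) (Finset.sum_nonneg fun a _ => ih _)

theorem hN_nonneg (S : NSys ι N μ) (s : ℕ) (u : S.A) : 0 ≤ S.hN s u := by
  induction s generalizing u with
  | zero => exact Real.sqrt_nonneg _
  | succ s ih => exact add_nonneg (ih u) (Finset.sum_nonneg fun a _ => ih _)

theorem hN_le_succ (S : NSys ι N μ) (s : ℕ) (u : S.A) : S.hN s u ≤ S.hN (s + 1) u :=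
  le_add_of_nonneg_right (Finset.sum_nonneg fun a _ => hN_nonneg S s _)

theorem hN_mono (S : NSys ι N μ) {s t : ℕ} (h : s ≤ t) (u : S.A) : S.hN s u ≤ S.hN t u := by
  induction t, h using Nat.le_induction with
  | base => exact le_rfl
  | succ t _ ih => exact ih.trans (hN_le_succ S t u)

theorem cN_le_succ (S : NSys ι N μ) (s : ℕ) (u : S.A) : S.cN s u ≤ S.cN (s + 1) u :=
  le_add_of_nonneg_right (Finset.sum_nonneg fun a _ => cN_nonneg S s _)

theorem cN_mono (S : NSys ι N μ) {s t : ℕ} (h : s ≤ t) (u : S.A) : S.cN s u ≤ S.cN t u := by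
  induction t, h using Nat.le_induction with
  | base => exact le_rfl
  | succ t _ ih => exact ih.trans (cN_le_succ S t u)

theorem hN_X_le (S : NSys ι N μ) (s : ℕ) (a : ι) (u : S.A) :
    S.hN s (S.X a u) ≤ S.hN (s + 1) u := by
  have h1 : S.hN s (S.X a u) ≤ ∑ a, S.hN s (S.X a u) :=
    Finset.single_le_sum (f := fun a => S.hN s (S.X a u)) (fun _ _ => hN_nonneg S s _)
      (Finset.mem_univ a)
  exact h1.trans (le_add_of_nonneg_left (hN_nonneg S s u))

theorem cN_X_le (S : NSys ι N μ) (s : ℕ) (a : ι) (u : S.A) :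
    S.cN s (S.X a u) ≤ S.cN (s + 1) u := by
  have h1 : S.cN s (S.X a u) ≤ ∑ a, S.cN s (S.X a u) :=
    Finset.single_le_sum (f := fun a => S.cN s (S.X a u)) (fun _ _ => cN_nonneg S s _)
      (Finset.mem_univ a)
  exact h1.trans (le_add_of_nonneg_left (cN_nonneg S s u))

/-- the words of derivations. -/
theorem l2_it_le (S : NSys ι N μ) (l : List ι) (u : S.A) :
    S.l2 ((ofN S).it l u) ≤ S.hN l.length u := by
  induction l generalizing u with
  | nil => exact le_rfl
  | cons a l ih =>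
    refine (ih (S.X a u)).trans ?_
    exact hN_X_le S l.length a u

variable [BorelSpace N] [IsFiniteMeasure μ]

theorem integral_abs_le_l2 (S : NSys ι N μ) (u : S.A) :
    ∫ q, |(u : C(N, ℝ)) q| ∂μ ≤
      ‖(ContinuousMap.toLp 2 μ ℝ (1 : C(N, ℝ)) : Lp ℝ 2 μ)‖ * S.l2 u := by
  refine (integral_abs_le (u : C(N, ℝ))).trans (le_of_eq ?_)
  congr 1
  rw [NSys.l2, ← norm_toLp_sq, Real.sqrt_sq (norm_nonneg _)]

/-- **the Sobolev inequality.** -/
theorem exists_sobolev (S : NSys ι N μ) (hS : S.Loc) :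
    ∃ (D : ℕ) (C : ℝ), 0 ≤ C ∧ ∀ (s : ℕ) (u : S.A), S.cN s u ≤ C * S.hN (s + D) u := by
  obtain ⟨l, r, C, hr, h⟩ := hS
  set K : ℝ := ‖(ContinuousMap.toLp 2 μ ℝ (1 : C(N, ℝ)) : Lp ℝ 2 μ)‖ with hK
  have hK0 : 0 ≤ K := norm_nonneg _
  set C' : ℝ := (max (1 / r) 1) ^ l.length * max C 0 * (l.sublists'.length * K) with hC'
  have hC'0 : 0 ≤ C' := by positivity
  refine ⟨l.length, C', hC'0, ?_⟩
  have key : ∀ u : S.A, ‖(u : C(N, ℝ))‖ ≤ C' * S.hN l.length u := by
    intro u
    rw [ContinuousMap.norm_le _ (mul_nonneg hC'0 (hN_nonneg S _ u))]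
    intro p
    have h1 := (ofN S).sobolev S.cont S.zero hr l (C := max C 0) (μ := μ)
      (fun F hF hF0 p => (h F hF hF0 p).trans
        (mul_le_mul_of_nonneg_right (le_max_left _ _) (integral_nonneg hF0))) u p
    refine h1.trans ?_
    rw [hC', mul_assoc ((max (1 / r) 1) ^ l.length * max C 0)]
    refine mul_le_mul_of_nonneg_left ?_ (by positivity)
    have h2 : (l.sublists'.map fun l' => ∫ q, |(ofN S).ev ((ofN S).it l' u) q| ∂μ).sum ≤
        (l.sublists'.map fun _ => K * S.hN l.length u).sum := by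
      refine List.sum_le_sum fun l' hl' => ?_
      refine (integral_abs_le_l2 S _).trans (mul_le_mul_of_nonneg_left ?_ hK0)
      refine (l2_it_le S l' u).trans (hN_mono S ?_ u)
      exact (List.mem_sublists'.1 hl').length_le
    refine h2.trans (le_of_eq ?_)
    rw [List.map_const', List.sum_replicate, nsmul_eq_mul]
    ring
  intro s
  induction s with
  | zero =>
    intro u
    rw [Nat.zero_add]
    exact key u
  | succ s ih =>
    intro u
    have e : s + 1 + l.length = (s + l.length) + 1 := by omega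
    rw [e]
    change S.cN s u + ∑ a, S.cN s (S.X a u) ≤
      C' * (S.hN (s + l.length) u + ∑ a, S.hN (s + l.length) (S.X a u))
    rw [mul_add, Finset.mul_sum]
    exact add_le_add (ih u) (Finset.sum_le_sum fun a _ => ih _)

theorem l2_le_norm (S : NSys ι N μ) (u : S.A) :
    S.l2 u ≤ ‖(ContinuousMap.toLp 2 μ ℝ (1 : C(N, ℝ)) : Lp ℝ 2 μ)‖ * ‖(u : C(N, ℝ))‖ := by
  have h1 : S.l2 u = ‖(ContinuousMap.toLp 2 μ ℝ (u : C(N, ℝ)) : Lp ℝ 2 μ)‖ := by
    rw [NSys.l2, ← norm_toLp_sq, Real.sqrt_sq (norm_nonneg _)]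
  rw [h1, ← sq_le_sq₀ (norm_nonneg _) (by positivity), mul_pow, norm_toLp_sq, norm_toLp_sq]
  have h2 : ∀ p, (u : C(N, ℝ)) p ^ 2 ≤ (1 : C(N, ℝ)) p ^ 2 * ‖(u : C(N, ℝ))‖ ^ 2 := by
    intro p
    have := (u : C(N, ℝ)).norm_coe_le_norm p
    rw [Real.norm_eq_abs] at this
    rw [ContinuousMap.one_apply, one_pow, one_mul, ← sq_abs]
    exact pow_le_pow_left₀ (abs_nonneg _) this 2
  rw [← MeasureTheory.integral_mul_const]
  refine integral_mono ?_ ?_ h2
  · exact ((u : C(N, ℝ)).continuous.pow 2).integrable_of_hasCompactSupport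
      (HasCompactSupport.of_compactSpace _)
  · exact (((1 : C(N, ℝ)).continuous.pow 2).mul continuous_const).integrable_of_hasCompactSupport
      (HasCompactSupport.of_compactSpace _)

/-- the trivial inequality between the norms. -/
theorem hN_le_cN (S : NSys ι N μ) (s : ℕ) (u : S.A) :
    S.hN s u ≤ ‖(ContinuousMap.toLp 2 μ ℝ (1 : C(N, ℝ)) : Lp ℝ 2 μ)‖ * S.cN s u := by
  induction s generalizing u with
  | zero => exact l2_le_norm S u
  | succ s ih =>
    change S.hN s u + ∑ a, S.hN s (S.X a u) ≤ _ * (S.cN s u + ∑ a, S.cN s (S.X a u))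
    rw [mul_add, Finset.mul_sum]
    exact add_le_add (ih u) (Finset.sum_le_sum fun a _ => ih _)

end Vale.Agent.P207.H955
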